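import Mathlib

namespace Vale.Agent.Results.P284.FiniteKernelLinear

open scoped commutatorElement

/-- A group is virtually abelian if it has an abelian subgroup of finite index. -/
def VirtuallyAbelian (G : Type*) [Group G] : Prop :=
  ∃ A : Subgroup G, A.FiniteIndex ∧ ∀ a ∈ A, ∀ b ∈ A, a * b = b * a

/-- A finitely generated group with finitely many commutators is virtually abelian. -/
theorem virtuallyAbelian_of_finite_commutatorSet (B : Type*) [Group B] [Group.FG B]
    [Finite (commutatorSet B)] : VirtuallyAbelian B := by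
  refine ⟨Subgroup.center B, Subgroup.finiteIndex_center, ?_⟩
  intro a ha b _
  exact (Subgroup.mem_center_iff.mp ha b).symm

/-- Virtual abelianity passes up from a finite-index subgroup. -/
theorem virtuallyAbelian_of_subgroup {G : Type*} [Group G] (B : Subgroup G) [B.FiniteIndex]
    (h : VirtuallyAbelian B) : VirtuallyAbelian G := by
  obtain ⟨A, hA, hcomm⟩ := h
  refine ⟨A.map B.subtype, ?_, ?_⟩
  · constructor
    rw [Subgroup.index_map_subtype]
    exact mul_ne_zero hA.index_ne_zero Subgroup.FiniteIndex.index_ne_zero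
  · rintro _ ⟨a, ha, rfl⟩ _ ⟨b, hb, rfl⟩
    have := hcomm a ha b hb
    simpa using congrArg B.subtype this

theorem result {G : Type} [Group G] (hG : Group.FG G)
    (hH : ∀ G₁ : Subgroup G, G₁.FiniteIndex →
      ∀ (n : ℕ) (ρ : G₁ →* GL (Fin n) ℂ), VirtuallyAbelian ρ.range)
    (G₁ : Subgroup G) (h₁ : G₁.FiniteIndex) (n : ℕ) (ρ : G₁ →* GL (Fin n) ℂ)
    (hρ : (ρ.ker : Set G₁).Finite) : VirtuallyAbelian G := by
  obtain ⟨A, hA, hcomm⟩ := hH G₁ h₁ n ρ
  -- pull back `A` to `G₁`
  obtain ⟨B, hBfi, hBdef⟩ : ∃ B : Subgroup G₁, B.FiniteIndex ∧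
      ∀ x : G₁, x ∈ B → ρ.rangeRestrict x ∈ A := by
    refine ⟨A.comap ρ.rangeRestrict, ?_, fun x hx => hx⟩
    constructor
    rw [Subgroup.index_comap_of_surjective A ρ.rangeRestrict_surjective]
    exact hA.index_ne_zero
  have hfg₁ : Group.FG G₁ := Subgroup.fg_of_index_ne_zero G₁
  have hfgB : Group.FG B := Subgroup.fg_of_index_ne_zero B
  -- every commutator of `B` lies in the finite kernel of `ρ`
  have hcs : Finite (commutatorSet B) := by
    have hmem : ∀ x : commutatorSet B, (x : B).1 ∈ (ρ.ker : Set G₁) := by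
      rintro ⟨x, g₁, g₂, rfl⟩
      have h1 : ρ.rangeRestrict g₁.1 ∈ A := hBdef _ g₁.2
      have h2 : ρ.rangeRestrict g₂.1 ∈ A := hBdef _ g₂.2
      have hc := hcomm _ h1 _ h2
      have hc' : ρ g₁.1 * ρ g₂.1 = ρ g₂.1 * ρ g₁.1 := by
        simpa using congrArg Subtype.val hc
      show ρ ((⁅g₁, g₂⁆ : B) : G₁) = 1
      simp only [commutatorElement_def, Subgroup.coe_mul, Subgroup.coe_inv, map_mul, map_inv]
      rw [hc']
      group
    have hfin : Finite (ρ.ker : Set G₁) := hρ
    refine Finite.of_injective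
      (fun x : commutatorSet B => (⟨(x : B).1, hmem x⟩ : (ρ.ker : Set G₁))) ?_
    intro x y hxy
    have : ((x : B) : G₁) = ((y : B) : G₁) := by
      simpa using congrArg (fun z : (ρ.ker : Set G₁) => (z : G₁)) hxy
    exact Subtype.ext (Subtype.ext this)
  have hB : VirtuallyAbelian B := virtuallyAbelian_of_finite_commutatorSet B
  have hG₁ : VirtuallyAbelian G₁ := virtuallyAbelian_of_subgroup B hB
  exact virtuallyAbelian_of_subgroup G₁ hG₁

end Vale.Agent.Results.P284.FiniteKernelLinear
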